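import Mathlib

namespace Vale.Agent.Results.P045.DownSets

/-- We describe an `r`-partite `r`-uniform hypergraph with parts indexed by `Fin r` as follows:
the vertices of part `i` are the pairs (i, x) with `x : ℕ`, and an edge is a tuple
`e : Fin r → ℕ`; it contains the vertex (i, e i) of each part `i`. The hypergraph is its set
`H` of edges. `IsCover H C`: the vertex set `C` meets every edge of `H`. -/
def IsCover {r : ℕ} (H : Set (Fin r → ℕ)) (C : Finset (Fin r × ℕ)) : Prop :=
  ∀ e ∈ H, ∃ i, (i, e i) ∈ C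

/-- `IsMatching H M`: `M` is a set of pairwise disjoint edges of `H` (two different edges of `M`
differ in every part). -/
def IsMatching {r : ℕ} (H : Set (Fin r → ℕ)) (M : Finset (Fin r → ℕ)) : Prop :=
  (∀ e ∈ M, e ∈ H) ∧ ∀ e ∈ M, ∀ f ∈ M, e ≠ f → ∀ i, e i ≠ f i

/-- The edge set is a down-set of the product order on tuples. -/
def DownClosed {r : ℕ} (H : Set (Fin r → ℕ)) : Prop :=
  ∀ e ∈ H, ∀ f : Fin r → ℕ, (∀ i, f i ≤ e i) → f ∈ H

theorem exists_cover_matching (n : ℕ) (H : Set (Fin (n + 2) → ℕ)) (hfin : H.Finite)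
    (hdown : DownClosed H) :
    ∃ (C : Finset (Fin (n + 2) × ℕ)) (M : Finset (Fin (n + 2) → ℕ)),
      IsCover H C ∧ IsMatching H M ∧ C.card ≤ (n + 1) * M.card := by
  classical
  have hex : ∃ s : ℕ, ∃ c : Fin (n + 2) → ℕ, c ∉ H ∧ ∑ i, c i = s := by
    obtain ⟨c, hc⟩ := hfin.exists_notMem
    exact ⟨_, c, hc, rfl⟩
  obtain ⟨c, hcH, hcs⟩ := Nat.find_spec hex
  have hmin : ∀ t : Fin (n + 2) → ℕ, ∑ i, t i < Nat.find hex → t ∈ H := by
    intro t ht
    by_contra htH
    exact Nat.find_min hex ht ⟨t, htH, rfl⟩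
  generalize Nat.find hex = s at hcs hmin
  -- the cover
  let C : Finset (Fin (n + 2) × ℕ) :=
    (Finset.univ.sigma (fun i : Fin (n + 2) => Finset.range (c i))).map
      (Equiv.sigmaEquivProd (Fin (n + 2)) ℕ).toEmbedding
  have hCcard : C.card = s := by
    rw [Finset.card_map, Finset.card_sigma]
    simp only [Finset.card_range]
    exact hcs
  have hC : IsCover H C := by
    intro e he
    by_contra hno
    push Not at hno
    apply hcH
    apply hdown e he c
    intro i
    by_contra hlt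
    push Not at hlt
    apply hno i
    simp only [C, Finset.mem_map, Finset.mem_sigma, Finset.mem_univ, true_and, Finset.mem_range,
      Equiv.coe_toEmbedding]
    exact ⟨⟨i, e i⟩, hlt, rfl⟩
  -- the matching
  obtain ⟨k, hk⟩ : ∃ k, k = (s + n) / (n + 1) := ⟨_, rfl⟩
  have hP1 := Nat.div_mul_le_self (s + n) (n + 1)
  have hP2 := Nat.lt_div_mul_add (a := s + n) (Nat.succ_pos n)
  rw [← hk] at hP1 hP2
  have hk1 : s ≤ (n + 1) * k := by nlinarith
  have hk2 : 0 < k → (n + 1) * (k - 1) < s := by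
    intro hpos
    obtain ⟨k', rfl⟩ : ∃ k', k = k' + 1 := ⟨k - 1, by omega⟩
    simp only [Nat.add_sub_cancel]
    nlinarith
  let t : ℕ → Fin (n + 2) → ℕ := fun x i => if (i : ℕ) = 0 then x else k - 1 - x
  let M : Finset (Fin (n + 2) → ℕ) := (Finset.range k).image t
  have htinj : Function.Injective t := by
    intro x y h
    have := congrFun h 0
    simpa [t] using this
  have hMcard : M.card = k := by
    rw [Finset.card_image_of_injective _ htinj, Finset.card_range]
  have hsum : ∀ x, x < k → ∑ i, t x i ≤ (n + 1) * (k - 1) := by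
    intro x hx
    rw [Fin.sum_univ_succ]
    simp only [t, Fin.val_zero, if_true, Fin.val_succ, Nat.succ_ne_zero, if_false,
      Finset.sum_const, Finset.card_univ, Fintype.card_fin, smul_eq_mul]
    obtain ⟨d, hd⟩ : ∃ d, k - 1 = d + x := ⟨k - 1 - x, by omega⟩
    have hd' : k - 1 - x = d := by omega
    rw [hd', hd]
    nlinarith [Nat.zero_le (n * x)]
  have hM : IsMatching H M := by
    refine ⟨?_, ?_⟩
    · intro e he
      simp only [M, Finset.mem_image, Finset.mem_range] at he
      obtain ⟨x, hx, rfl⟩ := he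
      exact hmin _ (lt_of_le_of_lt (hsum x hx) (hk2 (by omega)))
    · intro e he f hf hef i
      simp only [M, Finset.mem_image, Finset.mem_range] at he hf
      obtain ⟨x, hx, rfl⟩ := he
      obtain ⟨y, hy, rfl⟩ := hf
      have hxy : x ≠ y := fun h => hef (by rw [h])
      simp only [t]
      split_ifs <;> omega
  refine ⟨C, M, hC, hM, ?_⟩
  rw [hCcard, hMcard]
  exact hk1

/-- **Ryser's inequality for down-closed `r`-partite hypergraphs**, `r = n + 2 ≥ 2`. -/
theorem result :
    ∀ (n : ℕ) (H : Set (Fin (n + 2) → ℕ)), H.Finite → DownClosed H →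
      (∃ (C : Finset (Fin (n + 2) × ℕ)) (M : Finset (Fin (n + 2) → ℕ)),
        IsCover H C ∧ IsMatching H M ∧ C.card ≤ (n + 1) * M.card) ∧
      (∀ τ ν : ℕ, (∀ C : Finset (Fin (n + 2) × ℕ), IsCover H C → τ ≤ C.card) →
        (∀ M : Finset (Fin (n + 2) → ℕ), IsMatching H M → M.card ≤ ν) → τ ≤ (n + 1) * ν) := by
  intro n H hfin hdown
  obtain ⟨C, M, hC, hM, hle⟩ := exists_cover_matching n H hfin hdown
  refine ⟨⟨C, M, hC, hM, hle⟩, fun τ ν hτ hν => ?_⟩
  calc τ ≤ C.card := hτ C hC
    _ ≤ (n + 1) * M.card := hle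
    _ ≤ (n + 1) * ν := Nat.mul_le_mul_left _ (hν M hM)

end Vale.Agent.Results.P045.DownSets
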