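import Mathlib
import Vale.Agent.Results.P045.DownSets

namespace Vale.Agent.Results.P045.NestedPart

open Vale.Agent.Results.P045.DownSets

/-- The link of the vertex (0, a) of the first part: the `r`-partite hypergraph of all tuples
`f` such that the tuple with first coordinate `a` followed by `f` is an edge of the
(r + 1)-partite hypergraph `H`. -/
def link {r : ℕ} (H : Set (Fin (r + 1) → ℕ)) (a : ℕ) : Set (Fin r → ℕ) :=
  {f | (Fin.cons a f : Fin (r + 1) → ℕ) ∈ H}

/-- The links of the vertices of the first part are nested: `link H b ⊆ link H a` for `a ≤ b`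
(lowering the first coordinate of an edge gives an edge). -/
def NestedFirst {r : ℕ} (H : Set (Fin (r + 1) → ℕ)) : Prop :=
  ∀ a b : ℕ, a ≤ b → link H b ⊆ link H a

/-- `NestedKP r P k H`, for an (r + k)-partite hypergraph `H`: for `k = 0` it says `P H`; for
`k + 1` it says that the first part of `H` is nested and that `NestedKP r P k` holds for the link
of every vertex of the first part. So the first `k` parts are nested, hereditarily, and every
iterated link obtained by fixing the first `k` coordinates satisfies `P`. -/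
def NestedKP (r : ℕ) (P : Set (Fin r → ℕ) → Prop) : (k : ℕ) → Set (Fin (r + k) → ℕ) → Prop
  | 0, H => P H
  | (k + 1), H => NestedFirst H ∧ ∀ a, NestedKP r P k (link H a)

/-- `IsoDown H`: after relabelling the vertices inside each part by a permutation of `ℕ`, the
edge set is a down-set of the product order. -/
def IsoDown {r : ℕ} (H : Set (Fin r → ℕ)) : Prop :=
  ∃ σ : Fin r → Equiv.Perm ℕ, DownClosed ((fun (e : Fin r → ℕ) (i : Fin r) => σ i (e i)) '' H)

theorem isoDown_ryser (n : ℕ) (H : Set (Fin (n + 2) → ℕ)) (hfin : H.Finite) (h : IsoDown H) :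
    ∃ (C : Finset (Fin (n + 2) × ℕ)) (M : Finset (Fin (n + 2) → ℕ)),
      IsCover H C ∧ IsMatching H M ∧ C.card ≤ (n + 1) * M.card := by
  classical
  obtain ⟨σ, hσ⟩ := h
  obtain ⟨C, M, hC, hM, hle⟩ := exists_cover_matching n _ (hfin.image _) hσ
  let φ : (Fin (n + 2) → ℕ) → (Fin (n + 2) → ℕ) := fun e i => (σ i).symm (e i)
  have hφinj : Function.Injective φ := by
    intro e f h
    funext i
    exact (σ i).symm.injective (congrFun h i)
  refine ⟨C.image (fun p => (p.1, (σ p.1).symm p.2)), M.image φ, ?_, ⟨?_, ?_⟩, ?_⟩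
  · intro e he
    obtain ⟨i, hi⟩ := hC (fun i => σ i (e i)) ⟨e, he, rfl⟩
    refine ⟨i, ?_⟩
    rw [Finset.mem_image]
    exact ⟨(i, σ i (e i)), hi, by simp⟩
  · intro e he
    rw [Finset.mem_image] at he
    obtain ⟨e', he', rfl⟩ := he
    obtain ⟨e0, he0, rfl⟩ := hM.1 e' he'
    have : φ (fun i => σ i (e0 i)) = e0 := by
      funext i
      simp [φ]
    rw [this]
    exact he0
  · intro e he f hf hef i
    rw [Finset.mem_image] at he hf
    obtain ⟨e', he', rfl⟩ := he
    obtain ⟨f', hf', rfl⟩ := hf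
    have hne : e' ≠ f' := fun h => hef (by rw [h])
    have := hM.2 e' he' f' hf' hne i
    exact fun h => this ((σ i).symm.injective h)
  · calc (C.image (fun p => (p.1, (σ p.1).symm p.2))).card ≤ C.card := Finset.card_image_le
      _ ≤ (n + 1) * M.card := hle
      _ = (n + 1) * (M.image φ).card := by rw [Finset.card_image_of_injective _ hφinj]

theorem link_finite {r : ℕ} {H : Set (Fin (r + 1) → ℕ)} (hfin : H.Finite) (a : ℕ) :
    (link H a).Finite := by
  apply Set.Finite.of_finite_image (f := fun f : Fin r → ℕ => (Fin.cons a f : Fin (r + 1) → ℕ))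
  · exact hfin.subset (by rintro _ ⟨f, hf, rfl⟩; exact hf)
  · intro f _ g _ h
    exact Fin.cons_right_injective (α := fun _ => ℕ) a h

theorem cons_tail_mem {r : ℕ} {H : Set (Fin (r + 1) → ℕ)} {e : Fin (r + 1) → ℕ} (he : e ∈ H) :
    Fin.tail e ∈ link H (e 0) := by
  show (Fin.cons (e 0) (Fin.tail e) : Fin (r + 1) → ℕ) ∈ H
  rw [Fin.cons_self_tail]
  exact he

/-- The reduction step: if every link of a vertex of a nested first part has a cover and a
matching with `|C| ≤ c |M|`, the whole hypergraph has a cover and a matching with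
`|C| ≤ (c + 1) |M|`. -/
theorem step (r c : ℕ) (H : Set (Fin (r + 1) → ℕ)) (hfin : H.Finite) (hnest : NestedFirst H)
    (hlink : ∀ a : ℕ, ∃ (C : Finset (Fin r × ℕ)) (M : Finset (Fin r → ℕ)),
      IsCover (link H a) C ∧ IsMatching (link H a) M ∧ C.card ≤ c * M.card) :
    ∃ (C : Finset (Fin (r + 1) × ℕ)) (M : Finset (Fin (r + 1) → ℕ)),
      IsCover H C ∧ IsMatching H M ∧ C.card ≤ (c + 1) * M.card := by
  classical
  choose Cl Ml hCl hMl hle using hlink
  obtain ⟨B, hB⟩ : ∃ B : ℕ, ∀ e ∈ H, e 0 < B := by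
    obtain ⟨B, hB⟩ := (hfin.image (fun e : Fin (r + 1) → ℕ => e 0)).bddAbove
    refine ⟨B + 1, fun e he => ?_⟩
    have : e 0 ≤ B := hB ⟨e, he, rfl⟩
    omega
  have hempty : link H B = ∅ := by
    ext f
    simp only [link, Set.mem_ofPred_eq, Set.mem_empty_iff_false, iff_false]
    intro hf
    have := hB _ hf
    simp at this
  have hex : ∃ a : ℕ, (Ml a).card ≤ a := by
    refine ⟨B, ?_⟩
    have : Ml B = ∅ := by
      apply Finset.eq_empty_of_forall_notMem
      intro f hf
      have := (hMl B).1 f hf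
      rw [hempty] at this
      exact this
    rw [this]
    simp
  have ha := Nat.find_spec hex
  have hamin : ∀ b, b < Nat.find hex → b < (Ml b).card := fun b hb =>
    not_le.mp (Nat.find_min hex hb)
  generalize Nat.find hex = a at ha hamin
  let C : Finset (Fin (r + 1) × ℕ) :=
    (Finset.range a).image (fun x => ((0 : Fin (r + 1)), x)) ∪
      (Cl a).image (fun p => (p.1.succ, p.2))
  have hC : IsCover H C := by
    intro e he
    by_cases hlt : e 0 < a
    · refine ⟨0, ?_⟩
      simp only [C, Finset.mem_union, Finset.mem_image, Finset.mem_range]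
      exact Or.inl ⟨e 0, hlt, rfl⟩
    · have h1 : Fin.tail e ∈ link H a := hnest a (e 0) (not_lt.mp hlt) (cons_tail_mem he)
      obtain ⟨i, hi⟩ := hCl a _ h1
      refine ⟨i.succ, ?_⟩
      simp only [C, Finset.mem_union, Finset.mem_image]
      exact Or.inr ⟨(i, Fin.tail e i), hi, rfl⟩
  have hCcard : C.card ≤ a + (Cl a).card := by
    refine le_trans (Finset.card_union_le _ _) ?_
    refine Nat.add_le_add ?_ Finset.card_image_le
    exact le_trans Finset.card_image_le (by simp)
  by_cases ha0 : a = 0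
  · subst ha0
    refine ⟨C, ∅, hC, ⟨by simp, by simp⟩, ?_⟩
    have h1 : (Ml 0).card = 0 := Nat.le_zero.mp ha
    have h2 := hle 0
    rw [h1] at h2
    simp only [Finset.card_empty, mul_zero, Nat.le_zero] at h2 ⊢
    omega
  · obtain ⟨a', rfl⟩ : ∃ a', a = a' + 1 := ⟨a - 1, by omega⟩
    have hbig : a' + 1 ≤ (Ml a').card := hamin a' (Nat.lt_succ_self a')
    obtain ⟨M', hM'sub, hM'card⟩ := Finset.exists_subset_card_eq hbig
    let g : Fin (a' + 1) ≃ M' := (Finset.equivFinOfCardEq hM'card).symm
    let M : Finset (Fin (r + 1) → ℕ) :=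
      Finset.univ.image (fun j : Fin (a' + 1) => (Fin.cons (j : ℕ) (g j : Fin r → ℕ)
        : Fin (r + 1) → ℕ))
    have hinj : Function.Injective (fun j : Fin (a' + 1) =>
        (Fin.cons (j : ℕ) (g j : Fin r → ℕ) : Fin (r + 1) → ℕ)) := by
      intro j j' h
      have := congrFun h 0
      simp only [Fin.cons_zero] at this
      exact Fin.ext this
    have hMcard : M.card = a' + 1 := by
      rw [Finset.card_image_of_injective _ hinj, Finset.card_univ, Fintype.card_fin]
    have hM : IsMatching H M := by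
      refine ⟨?_, ?_⟩
      · intro e he
        simp only [M, Finset.mem_image, Finset.mem_univ, true_and] at he
        obtain ⟨j, rfl⟩ := he
        have h1 : (g j : Fin r → ℕ) ∈ link H a' := (hMl a').1 _ (hM'sub (g j).2)
        exact hnest (j : ℕ) a' (Nat.lt_succ_iff.mp j.2) h1
      · intro e he f hf hef i
        simp only [M, Finset.mem_image, Finset.mem_univ, true_and] at he hf
        obtain ⟨j, rfl⟩ := he
        obtain ⟨j', rfl⟩ := hf
        have hjj : j ≠ j' := fun h => hef (by rw [h])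
        refine Fin.cases ?_ (fun i' => ?_) i
        · simp only [Fin.cons_zero]
          exact fun h => hjj (Fin.ext h)
        · simp only [Fin.cons_succ]
          have hne : (g j : Fin r → ℕ) ≠ (g j' : Fin r → ℕ) := fun h =>
            hjj (g.injective (Subtype.ext h))
          exact (hMl a').2 _ (hM'sub (g j).2) _ (hM'sub (g j').2) hne i'
    refine ⟨C, M, hC, hM, ?_⟩
    rw [hMcard]
    have h2 := hle (a' + 1)
    have h3 : c * (Ml (a' + 1)).card ≤ c * (a' + 1) := Nat.mul_le_mul_left _ ha
    nlinarith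

/-- Iteration over `k` nested parts, starting from a class `P` of `r`-partite hypergraphs. -/
theorem iterate (r c : ℕ) (P : Set (Fin r → ℕ) → Prop)
    (hbase : ∀ H' : Set (Fin r → ℕ), H'.Finite → P H' →
      ∃ (C : Finset (Fin r × ℕ)) (M : Finset (Fin r → ℕ)),
        IsCover H' C ∧ IsMatching H' M ∧ C.card ≤ c * M.card) :
    ∀ (k : ℕ) (H : Set (Fin (r + k) → ℕ)), H.Finite → NestedKP r P k H →
      ∃ (C : Finset (Fin (r + k) × ℕ)) (M : Finset (Fin (r + k) → ℕ)),
        IsCover H C ∧ IsMatching H M ∧ C.card ≤ (c + k) * M.card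
  | 0, H, hfin, hP => hbase H hfin hP
  | (k + 1), H, hfin, hn =>
      step (r + k) (c + k) H hfin hn.1
        (fun a => iterate r c P hbase k (link H a) (link_finite hfin a) (hn.2 a))

/-- **Nested parts and Ryser's inequality.** -/
theorem result :
    (∀ (n k : ℕ) (H : Set (Fin (n + 2 + k) → ℕ)), H.Finite → NestedKP (n + 2) IsoDown k H →
      ∃ (C : Finset (Fin (n + 2 + k) × ℕ)) (M : Finset (Fin (n + 2 + k) → ℕ)),
        IsCover H C ∧ IsMatching H M ∧ C.card ≤ (n + 1 + k) * M.card) ∧
    (∀ (r c : ℕ) (H : Set (Fin (r + 1) → ℕ)), H.Finite → NestedFirst H →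
      (∀ a : ℕ, ∃ (C : Finset (Fin r × ℕ)) (M : Finset (Fin r → ℕ)),
        IsCover (link H a) C ∧ IsMatching (link H a) M ∧ C.card ≤ c * M.card) →
      ∃ (C : Finset (Fin (r + 1) × ℕ)) (M : Finset (Fin (r + 1) → ℕ)),
        IsCover H C ∧ IsMatching H M ∧ C.card ≤ (c + 1) * M.card) ∧
    (∀ (r c : ℕ),
      (∀ H' : Set (Fin r → ℕ), H'.Finite →
        ∃ (C : Finset (Fin r × ℕ)) (M : Finset (Fin r → ℕ)),
          IsCover H' C ∧ IsMatching H' M ∧ C.card ≤ c * M.card) →
      ∀ (k : ℕ) (H : Set (Fin (r + k) → ℕ)), H.Finite → NestedKP r (fun _ => True) k H →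
        ∃ (C : Finset (Fin (r + k) × ℕ)) (M : Finset (Fin (r + k) → ℕ)),
          IsCover H C ∧ IsMatching H M ∧ C.card ≤ (c + k) * M.card) ∧
    ((∀ H' : Set (Fin 3 → ℕ), H'.Finite →
        ∃ (C : Finset (Fin 3 × ℕ)) (M : Finset (Fin 3 → ℕ)),
          IsCover H' C ∧ IsMatching H' M ∧ C.card ≤ 2 * M.card) →
      ∀ H : Set (Fin 4 → ℕ), H.Finite → NestedFirst H →
        ∃ (C : Finset (Fin 4 × ℕ)) (M : Finset (Fin 4 → ℕ)),
          IsCover H C ∧ IsMatching H M ∧ C.card ≤ 3 * M.card) :=
  ⟨fun n k H hfin hn => iterate (n + 2) (n + 1) IsoDown (isoDown_ryser n) k H hfin hn,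
    step,
    fun r c hbase k H hfin hn => iterate r c (fun _ => True) (fun H' h' _ => hbase H' h') k H hfin hn,
    fun h3 H hfin hn => step 3 2 H hfin hn (fun a => h3 (link H a) (link_finite hfin a))⟩

end Vale.Agent.Results.P045.NestedPart
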