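import Mathlib
import Vale.Agent.Results.P045.NestedPart

namespace Vale.Agent.Results.P045.NestedPartKonig

open Vale.Agent.Results.P045.DownSets Vale.Agent.Results.P045.NestedPart

/-- One side of the proof of König's theorem from Hall's theorem: in a minimum vertex cover
(A, B) of a bipartite graph with edge set `E`, the side `A` can be matched into the
complement of `B`. -/
theorem hall_side (E : Finset (ℕ × ℕ)) (A B : Finset ℕ)
    (hcov : ∀ e ∈ E, e.1 ∈ A ∨ e.2 ∈ B)
    (hmin : ∀ A' B' : Finset ℕ, (∀ e ∈ E, e.1 ∈ A' ∨ e.2 ∈ B') →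
      A.card + B.card ≤ A'.card + B'.card) :
    ∃ f : {x // x ∈ A} → ℕ, Function.Injective f ∧
      ∀ x : {x // x ∈ A}, ((x : ℕ), f x) ∈ E ∧ f x ∉ B := by
  classical
  let t : {x // x ∈ A} → Finset ℕ := fun x =>
    (E.filter (fun e => e.1 = (x : ℕ) ∧ e.2 ∉ B)).image Prod.snd
  have hall : ∀ S : Finset {x // x ∈ A}, S.card ≤ (S.biUnion t).card := by
    intro S
    by_contra hlt
    push Not at hlt
    let S' : Finset ℕ := S.image Subtype.val
    have hS'card : S'.card = S.card := Finset.card_image_of_injective _ Subtype.val_injective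
    have hS'A : S' ⊆ A := by
      intro x hx
      obtain ⟨y, _, rfl⟩ := Finset.mem_image.mp hx
      exact y.2
    have hcov' : ∀ e ∈ E, e.1 ∈ A \ S' ∨ e.2 ∈ B ∪ S.biUnion t := by
      intro e he
      by_cases h2 : e.2 ∈ B
      · exact Or.inr (Finset.mem_union_left _ h2)
      · have h1 : e.1 ∈ A := (hcov e he).resolve_right h2
        by_cases h3 : e.1 ∈ S'
        · right
          obtain ⟨y, hy, hye⟩ := Finset.mem_image.mp h3
          refine Finset.mem_union_right _ ?_
          rw [Finset.mem_biUnion]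
          refine ⟨y, hy, ?_⟩
          show e.2 ∈ (E.filter (fun e => e.1 = (y : ℕ) ∧ e.2 ∉ B)).image Prod.snd
          rw [Finset.mem_image]
          exact ⟨e, Finset.mem_filter.mpr ⟨he, hye.symm, h2⟩, rfl⟩
        · exact Or.inl (Finset.mem_sdiff.mpr ⟨h1, h3⟩)
    have h := hmin _ _ hcov'
    have h1 : (A \ S').card + S'.card = A.card := Finset.card_sdiff_add_card_eq_card hS'A
    have h2 : (B ∪ S.biUnion t).card ≤ B.card + (S.biUnion t).card := Finset.card_union_le _ _
    omega
  obtain ⟨f, hf, hft⟩ := (Finset.all_card_le_biUnion_card_iff_exists_injective t).mp hall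
  refine ⟨f, hf, fun x => ?_⟩
  have hx : f x ∈ (E.filter (fun e => e.1 = (x : ℕ) ∧ e.2 ∉ B)).image Prod.snd := hft x
  obtain ⟨e, he, hex⟩ := Finset.mem_image.mp hx
  obtain ⟨heE, he1, he2⟩ := Finset.mem_filter.mp he
  constructor
  · have : e = ((x : ℕ), f x) := Prod.ext he1 hex
    rw [← this]
    exact heE
  · rw [← hex]
    exact he2

/-- **König's theorem** for a finite bipartite graph given by its set `E` of edges (x, y): there
are a vertex cover (A on the left, B on the right) and a matching `M` with |A| + |B| ≤ |M|. -/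
theorem konig_pairs (E : Finset (ℕ × ℕ)) :
    ∃ (A B : Finset ℕ) (M : Finset (ℕ × ℕ)),
      (∀ e ∈ E, e.1 ∈ A ∨ e.2 ∈ B) ∧ M ⊆ E ∧
      (∀ e ∈ M, ∀ f ∈ M, e ≠ f → e.1 ≠ f.1 ∧ e.2 ≠ f.2) ∧ A.card + B.card ≤ M.card := by
  classical
  have hex : ∃ n : ℕ, ∃ A B : Finset ℕ, (∀ e ∈ E, e.1 ∈ A ∨ e.2 ∈ B) ∧ A.card + B.card = n :=
    ⟨_, E.image Prod.fst, ∅, fun e he => Or.inl (Finset.mem_image_of_mem _ he), rfl⟩
  obtain ⟨A, B, hcov, hcard⟩ := Nat.find_spec hex
  have hmin : ∀ A' B' : Finset ℕ, (∀ e ∈ E, e.1 ∈ A' ∨ e.2 ∈ B') →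
      A.card + B.card ≤ A'.card + B'.card := by
    intro A' B' h
    rw [hcard]
    exact Nat.find_min' hex ⟨A', B', h, rfl⟩
  obtain ⟨f, hf, hfE⟩ := hall_side E A B hcov hmin
  have hcovs : ∀ e ∈ E.image Prod.swap, e.1 ∈ B ∨ e.2 ∈ A := by
    intro e he
    obtain ⟨e', he', rfl⟩ := Finset.mem_image.mp he
    exact (hcov e' he').symm
  have hmins : ∀ B' A' : Finset ℕ, (∀ e ∈ E.image Prod.swap, e.1 ∈ B' ∨ e.2 ∈ A') →
      B.card + A.card ≤ B'.card + A'.card := by
    intro B' A' h
    have := hmin A' B' (fun e he => (h e.swap (Finset.mem_image_of_mem _ he)).symm)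
    omega
  obtain ⟨g, hg, hgE⟩ := hall_side (E.image Prod.swap) B A hcovs hmins
  have hgE' : ∀ y : {y // y ∈ B}, (g y, (y : ℕ)) ∈ E ∧ g y ∉ A := by
    intro y
    obtain ⟨h1, h2⟩ := hgE y
    obtain ⟨e, he, hes⟩ := Finset.mem_image.mp h1
    refine ⟨?_, h2⟩
    have : e = (g y, (y : ℕ)) := by
      have := congrArg Prod.swap hes
      simpa using this
    rw [← this]
    exact he
  let M1 : Finset (ℕ × ℕ) := Finset.univ.image (fun x : {x // x ∈ A} => ((x : ℕ), f x))
  let M2 : Finset (ℕ × ℕ) := Finset.univ.image (fun y : {y // y ∈ B} => (g y, (y : ℕ)))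
  refine ⟨A, B, M1 ∪ M2, hcov, ?_, ?_, ?_⟩
  · intro e he
    rcases Finset.mem_union.mp he with h | h
    · obtain ⟨x, _, rfl⟩ := Finset.mem_image.mp h
      exact (hfE x).1
    · obtain ⟨y, _, rfl⟩ := Finset.mem_image.mp h
      exact (hgE' y).1
  · intro e he e' he' hne
    rcases Finset.mem_union.mp he with h | h <;> rcases Finset.mem_union.mp he' with h' | h'
    · obtain ⟨x, _, rfl⟩ := Finset.mem_image.mp h
      obtain ⟨x', _, rfl⟩ := Finset.mem_image.mp h'
      have hxx : x ≠ x' := fun hh => hne (by rw [hh])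
      exact ⟨fun hh => hxx (Subtype.ext hh), fun hh => hxx (hf hh)⟩
    · obtain ⟨x, _, rfl⟩ := Finset.mem_image.mp h
      obtain ⟨y, _, rfl⟩ := Finset.mem_image.mp h'
      refine ⟨fun hh => (hgE' y).2 ?_, fun hh => (hfE x).2 ?_⟩
      · have hh' : (x : ℕ) = g y := hh
        rw [← hh']
        exact x.2
      · have hh' : f x = (y : ℕ) := hh
        rw [hh']
        exact y.2
    · obtain ⟨y, _, rfl⟩ := Finset.mem_image.mp h
      obtain ⟨x, _, rfl⟩ := Finset.mem_image.mp h'
      refine ⟨fun hh => (hgE' y).2 ?_, fun hh => (hfE x).2 ?_⟩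
      · have hh' : g y = (x : ℕ) := hh
        rw [hh']
        exact x.2
      · have hh' : (y : ℕ) = f x := hh
        rw [← hh']
        exact y.2
    · obtain ⟨y, _, rfl⟩ := Finset.mem_image.mp h
      obtain ⟨y', _, rfl⟩ := Finset.mem_image.mp h'
      have hyy : y ≠ y' := fun hh => hne (by rw [hh])
      exact ⟨fun hh => hyy (hg hh), fun hh => hyy (Subtype.ext hh)⟩
  · have hdisj : Disjoint M1 M2 := by
      rw [Finset.disjoint_left]
      intro e h1 h2
      obtain ⟨x, _, rfl⟩ := Finset.mem_image.mp h1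
      obtain ⟨y, _, hy⟩ := Finset.mem_image.mp h2
      have hgy : g y = (x : ℕ) := congrArg Prod.fst hy
      exact (hgE' y).2 (hgy ▸ x.2)
    rw [Finset.card_union_of_disjoint hdisj]
    have h1 : M1.card = A.card := by
      rw [Finset.card_image_of_injective]
      · simp
      · intro x x' h
        exact Subtype.ext (congrArg Prod.fst h)
    have h2 : M2.card = B.card := by
      rw [Finset.card_image_of_injective]
      · simp
      · intro y y' h
        exact Subtype.ext (congrArg Prod.snd h)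
    omega

/-- König's theorem in the tuple model of 2-partite hypergraphs. -/
theorem konig_tuples (H : Set (Fin 2 → ℕ)) (hfin : H.Finite) :
    ∃ (C : Finset (Fin 2 × ℕ)) (M : Finset (Fin 2 → ℕ)),
      IsCover H C ∧ IsMatching H M ∧ C.card ≤ 1 * M.card := by
  classical
  obtain ⟨A, B, M, hcov, hME, hM, hcard⟩ :=
    konig_pairs (hfin.toFinset.image (fun e => (e 0, e 1)))
  refine ⟨A.image (fun x => ((0 : Fin 2), x)) ∪ B.image (fun y => ((1 : Fin 2), y)),
    M.image (fun p => ![p.1, p.2]), ?_, ⟨?_, ?_⟩, ?_⟩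
  · intro e he
    have hmem : (e 0, e 1) ∈ hfin.toFinset.image (fun e => (e 0, e 1)) :=
      Finset.mem_image_of_mem _ (hfin.mem_toFinset.mpr he)
    rcases hcov _ hmem with h | h
    · exact ⟨0, Finset.mem_union_left _ (Finset.mem_image_of_mem _ h)⟩
    · exact ⟨1, Finset.mem_union_right _ (Finset.mem_image_of_mem _ h)⟩
  · intro e he
    obtain ⟨p, hp, rfl⟩ := Finset.mem_image.mp he
    obtain ⟨e0, he0, hpe⟩ := Finset.mem_image.mp (hME hp)
    have : (![p.1, p.2] : Fin 2 → ℕ) = e0 := by
      funext i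
      fin_cases i
      · simp [← hpe]
      · simp [← hpe]
    rw [this]
    exact hfin.mem_toFinset.mp he0
  · intro e he f hf hef i
    obtain ⟨p, hp, rfl⟩ := Finset.mem_image.mp he
    obtain ⟨q, hq, rfl⟩ := Finset.mem_image.mp hf
    have hpq : p ≠ q := fun h => hef (by rw [h])
    obtain ⟨h1, h2⟩ := hM p hp q hq hpq
    fin_cases i
    · simpa using h1
    · simpa using h2
  · have hinj : Function.Injective (fun p : ℕ × ℕ => (![p.1, p.2] : Fin 2 → ℕ)) := by
      intro p q h
      have h0 := congrFun h 0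
      have h1 := congrFun h 1
      simp at h0 h1
      exact Prod.ext h0 h1
    rw [Finset.card_image_of_injective _ hinj, one_mul]
    calc (A.image (fun x => ((0 : Fin 2), x)) ∪ B.image (fun y => ((1 : Fin 2), y))).card
        ≤ (A.image (fun x => ((0 : Fin 2), x))).card + (B.image (fun y => ((1 : Fin 2), y))).card :=
          Finset.card_union_le _ _
      _ ≤ A.card + B.card := Nat.add_le_add Finset.card_image_le Finset.card_image_le
      _ ≤ M.card := hcard

/-- **Ryser's inequality when all but two parts are nested.** For every `k` and every finite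
(k + 2)-partite hypergraph whose first `k` parts are hereditarily nested (no condition on the
last two parts), there are a vertex cover `C` and a matching `M` with |C| ≤ (k + 1)|M|; the
second item is the case `k = 0`, König's theorem, in the same model. -/
theorem result :
    (∀ (k : ℕ) (H : Set (Fin (2 + k) → ℕ)), H.Finite → NestedKP 2 (fun _ => True) k H →
      ∃ (C : Finset (Fin (2 + k) × ℕ)) (M : Finset (Fin (2 + k) → ℕ)),
        IsCover H C ∧ IsMatching H M ∧ C.card ≤ (1 + k) * M.card) ∧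
    (∀ H : Set (Fin 2 → ℕ), H.Finite →
      ∃ (C : Finset (Fin 2 × ℕ)) (M : Finset (Fin 2 → ℕ)),
        IsCover H C ∧ IsMatching H M ∧ C.card ≤ M.card) := by
  refine ⟨fun k H hfin hn =>
    iterate 2 1 (fun _ => True) (fun H' h' _ => konig_tuples H' h') k H hfin hn, ?_⟩
  intro H hfin
  obtain ⟨C, M, hC, hM, hle⟩ := konig_tuples H hfin
  exact ⟨C, M, hC, hM, by simpa using hle⟩

end Vale.Agent.Results.P045.NestedPartKonig
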